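import Mathlib

/-! P133: the notions of pure infiniteness for (possibly nonunital) C*-algebras. -/

namespace Vale.Agent.P133

open scoped Matrix

universe u

section
variable {C : Type u} [NonUnitalCStarAlgebra C]

/-- Cuntz comparison of square matrices `u`, `v` over `C` (possibly of different sizes):
`x* v x` approximates `u` for suitable rectangular matrices `x` over `C`. -/
def CuntzLE {m n : Type} [Fintype m] [Fintype n] (u : Matrix m m C) (v : Matrix n n C) : Prop :=
  ∀ ε : ℝ, 0 < ε → ∃ x : Matrix n m C, ∀ i j, ‖(xᴴ * v * x - u) i j‖ < ε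

/-- `h` is properly infinite: `diag(h, h)` is Cuntz below `h`. -/
def ProperlyInfinite {n : Type} [Fintype n] (h : Matrix n n C) : Prop :=
  CuntzLE (Matrix.fromBlocks h 0 0 h) h

end

variable (C : Type u) [NonUnitalCStarAlgebra C] [PartialOrder C]

/-- every positive element (seen as a `1 × 1` matrix) is properly infinite -/
def PurelyInfinite : Prop :=
  ∀ h : C, 0 ≤ h → ProperlyInfinite (Matrix.diagonal fun _ : Fin 1 => h)

/-- for one `n ≥ 1`, the `n`-fold amplification of every positive element is properly infinite -/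
def WeaklyPurelyInfinite : Prop :=
  ∃ n : ℕ, 1 ≤ n ∧ ∀ h : C, 0 ≤ h → ProperlyInfinite (Matrix.diagonal fun _ : Fin n => h)

/-- strong pure infiniteness in the form of Kirchberg and Sierakowski -/
def StronglyPurelyInfinite : Prop :=
  ∀ x y : C, 0 ≤ x → 0 ≤ y → ∀ ε : ℝ, 0 < ε → ∃ s t : C,
    ‖star s * (x * x) * s - x * x‖ < ε ∧ ‖star t * (y * y) * t - y * y‖ < ε ∧
      ‖star s * (x * y) * t‖ < ε

end Vale.Agent.P133
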